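import Vale.Agent.Lib.P254.Orlicz.Skel

/-!
# P254: generalized Orlicz balls in every dimension `n ≥ 2`

The sharp one-dimensional inequality for `k`-th powers of concave functions (Berwald) together
with the Brunn-Minkowski concavity of the `m`-th root of the section volumes gives
`(m+3) ∫ x_i² |K| ≤ 2 (m+2) (∫ |x_i|)²` for bodies `K ⊆ ℝ^(m+1)` symmetric in every coordinate,
hence, with the volume bound `|K| ≥ 4^n ∏ b_i` of the Orlicz balls,
`det Σ_K / |K|² ≤ ((n+1)/(8(n+2)))^n`, which is below the simplex value for every `n ≥ 2`.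
-/

open MeasureTheory Set
open scoped Pointwise

namespace Vale.Agent.Lib.P254.Orlicz

open Vale.Agent.Lib.P254

/-! ### BMK : Brunn-Minkowski in dimension `k`, root form -/

/-- Volume of a nonnegative dilate of a set in `ℝ^k`. -/
lemma bmk_vol_smul {k : ℕ} {r : ℝ} (hr : 0 ≤ r) (S : Set (Fin k → ℝ)) :
    vol (r • S) = r ^ k * vol S := by
  unfold vol
  rw [Measure.addHaar_smul, Module.finrank_fin_fun, ENNReal.toReal_mul,
    ENNReal.toReal_ofReal (abs_nonneg _), abs_pow, abs_of_nonneg hr]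

lemma bmk_root_pow {k : ℕ} (hk : 1 ≤ k) {v : ℝ} (hv : 0 ≤ v) :
    (v ^ ((k:ℝ)⁻¹)) ^ k = v :=
  Real.rpow_inv_natCast_pow hv (by omega)

lemma bmk_le_root {k : ℕ} (hk : 1 ≤ k) {c v : ℝ} (hc : 0 ≤ c) (h : c ^ k ≤ v) :
    c ≤ v ^ ((k:ℝ)⁻¹) := by
  have hk0 : k ≠ 0 := by omega
  have h1 : (c ^ k) ^ ((k:ℝ)⁻¹) ≤ v ^ ((k:ℝ)⁻¹) :=
    Real.rpow_le_rpow (pow_nonneg hc k) h (by positivity)
  rwa [Real.pow_rpow_inv_natCast hc hk0] at h1

lemma bmk_weak {k : ℕ} (hk : 1 ≤ k) {B W : Set (Fin k → ℝ)} (hWfin : volume W ≠ ⊤)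
    (z : Fin k → ℝ) (b : ℝ) (hb : 0 ≤ b) (hW : ∀ y ∈ B, z + b • y ∈ W) :
    b * (vol B) ^ ((k:ℝ)⁻¹) ≤ (vol W) ^ ((k:ℝ)⁻¹) := by
  have hsub : b • B ⊆ (fun h => z + h) ⁻¹' W := by
    rintro _ ⟨y, hy, rfl⟩
    exact hW y hy
  have h1 : volume (b • B) ≤ volume W := by
    calc volume (b • B) ≤ volume ((fun h => z + h) ⁻¹' W) := measure_mono hsub
      _ = volume W := measure_preimage_add volume z W
  have h2 : vol (b • B) ≤ vol W := ENNReal.toReal_mono hWfin h1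
  rw [bmk_vol_smul hb] at h2
  have hB0 : 0 ≤ vol B := ENNReal.toReal_nonneg
  apply bmk_le_root hk (mul_nonneg hb (Real.rpow_nonneg hB0 _))
  calc (b * (vol B) ^ ((k:ℝ)⁻¹)) ^ k = b ^ k * vol B := by
        rw [mul_pow, bmk_root_pow hk hB0]
    _ ≤ vol W := h2

theorem bm_root {k : ℕ} (hk : 1 ≤ k) {A B W : Set (Fin k → ℝ)} (hA : IsCompact A)
    (hAc : Convex ℝ A) (hAn : A.Nonempty) (hB : IsCompact B) (hBc : Convex ℝ B)
    (hBn : B.Nonempty) (hWfin : volume W ≠ ⊤) {a b : ℝ} (ha : 0 ≤ a) (hb : 0 ≤ b)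
    (hW : ∀ x ∈ A, ∀ y ∈ B, a • x + b • y ∈ W) :
    a * (vol A) ^ ((k:ℝ)⁻¹) + b * (vol B) ^ ((k:ℝ)⁻¹) ≤ (vol W) ^ ((k:ℝ)⁻¹) := by
  obtain ⟨x0, hx0⟩ := hAn
  obtain ⟨y0, hy0⟩ := hBn
  have hwB : b * (vol B) ^ ((k:ℝ)⁻¹) ≤ (vol W) ^ ((k:ℝ)⁻¹) :=
    bmk_weak hk hWfin (a • x0) b hb (fun y hy => hW x0 hx0 y hy)
  have hwA : a * (vol A) ^ ((k:ℝ)⁻¹) ≤ (vol W) ^ ((k:ℝ)⁻¹) :=
    bmk_weak hk hWfin (b • y0) a ha (fun x hx => by rw [add_comm]; exact hW x hx y0 hy0)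
  have hA0 : 0 ≤ vol A := ENNReal.toReal_nonneg
  have hB0 : 0 ≤ vol B := ENNReal.toReal_nonneg
  have hW0 : 0 ≤ vol W := ENNReal.toReal_nonneg
  set α := (vol A) ^ ((k:ℝ)⁻¹) with hα
  set β := (vol B) ^ ((k:ℝ)⁻¹) with hβ
  have hα0 : 0 ≤ α := Real.rpow_nonneg hA0 _
  have hβ0 : 0 ≤ β := Real.rpow_nonneg hB0 _
  rcases eq_or_lt_of_le (mul_nonneg ha hα0) with h1 | h1
  · rw [← h1, zero_add]; exact hwB
  rcases eq_or_lt_of_le (mul_nonneg hb hβ0) with h2 | h2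
  · rw [← h2, add_zero]; exact hwA
  have hapos : 0 < a := by
    rcases eq_or_lt_of_le ha with h | h
    · rw [← h, zero_mul] at h1; exact absurd h1 (lt_irrefl 0)
    · exact h
  have hαpos : 0 < α := by
    rcases eq_or_lt_of_le hα0 with h | h
    · rw [← h, mul_zero] at h1; exact absurd h1 (lt_irrefl 0)
    · exact h
  have hbpos : 0 < b := by
    rcases eq_or_lt_of_le hb with h | h
    · rw [← h, zero_mul] at h2; exact absurd h2 (lt_irrefl 0)
    · exact h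
  have hβpos : 0 < β := by
    rcases eq_or_lt_of_le hβ0 with h | h
    · rw [← h, mul_zero] at h2; exact absurd h2 (lt_irrefl 0)
    · exact h
  set c := a * α + b * β with hc
  have hcpos : 0 < c := by positivity
  have hα2 : α ^ k = vol A := bmk_root_pow hk hA0
  have hβ2 : β ^ k = vol B := bmk_root_pow hk hB0
  have hvA' : vol (α⁻¹ • A) = 1 := by
    rw [bmk_vol_smul (inv_nonneg.mpr hα0), ← hα2, ← mul_pow, inv_mul_cancel₀ hαpos.ne',
      one_pow]
  have hvB' : vol (β⁻¹ • B) = 1 := by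
    rw [bmk_vol_smul (inv_nonneg.mpr hβ0), ← hβ2, ← mul_pow, inv_mul_cancel₀ hβpos.ne',
      one_pow]
  set S : Set ((Fin k → ℝ) × ℝ) := (α⁻¹ • A) ×ˢ ({0} : Set ℝ) with hS
  set T : Set ((Fin k → ℝ) × ℝ) := (β⁻¹ • B) ×ˢ ({1} : Set ℝ) with hT
  have hSc : Convex ℝ S := (hAc.smul α⁻¹).prod (convex_singleton 0)
  have hTc : Convex ℝ T := (hBc.smul β⁻¹).prod (convex_singleton 1)
  have hSk : IsCompact S := (hA.smul α⁻¹).prod isCompact_singleton
  have hTk : IsCompact T := (hB.smul β⁻¹).prod isCompact_singleton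
  have hSn : S.Nonempty := ⟨(α⁻¹ • x0, 0), ⟨smul_mem_smul_set hx0, rfl⟩⟩
  have hTn : T.Nonempty := ⟨(β⁻¹ • y0, 1), ⟨smul_mem_smul_set hy0, rfl⟩⟩
  set C : Set ((Fin k → ℝ) × ℝ) := convexJoin ℝ S T with hC
  have hCc : Convex ℝ C := hSc.convexJoin hTc
  have hCk : IsCompact C := by
    have himg : C = (fun p : (((Fin k → ℝ) × ℝ) × ((Fin k → ℝ) × ℝ)) × ℝ =>
        (1 - p.2) • p.1.1 + p.2 • p.1.2) '' ((S ×ˢ T) ×ˢ Icc (0:ℝ) 1) := by
      ext z
      rw [hC, mem_convexJoin]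
      constructor
      · rintro ⟨p, hp, q, hq, u, w, hu, hw, huw, rfl⟩
        refine ⟨((p, q), w), ⟨⟨hp, hq⟩, ⟨hw, by linarith⟩⟩, ?_⟩
        have h1w : 1 - w = u := by linarith
        show (1 - w) • p + w • q = u • p + w • q
        rw [h1w]
      · rintro ⟨⟨⟨p, q⟩, e⟩, ⟨⟨hp, hq⟩, he0, he1⟩, rfl⟩
        exact ⟨p, hp, q, hq, 1 - e, e, by linarith, he0, by ring, rfl⟩
    rw [himg]
    exact ((hSk.prod hTk).prod isCompact_Icc).image (by fun_prop)
  set μ := b * β / c with hμ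
  have hμpos : 0 < μ := by positivity
  have h1μ : 1 - μ = a * α / c := by
    rw [hμ, hc]; field_simp; ring
  have h1μpos : 0 < 1 - μ := by rw [h1μ]; positivity
  have key := fibre_vol_logconcave k ℝ C hCk hCc 0 1 (1 - μ) μ h1μpos hμpos (by ring)
  have hfin : ∀ e : ℝ, volume {y : Fin k → ℝ | (y, e) ∈ C} ≠ ⊤ := by
    intro e
    have hsub : {y : Fin k → ℝ | (y, e) ∈ C} ⊆ Prod.fst '' C := fun y hy => ⟨(y, e), hy, rfl⟩
    exact (lt_of_le_of_lt (measure_mono hsub) (hCk.image continuous_fst).measure_lt_top).ne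
  have h0 : 1 ≤ vol {y : Fin k → ℝ | (y, (0:ℝ)) ∈ C} := by
    have hle : vol (α⁻¹ • A) ≤ vol {y : Fin k → ℝ | (y, (0:ℝ)) ∈ C} := by
      apply ENNReal.toReal_mono (hfin 0)
      apply measure_mono
      intro y hy
      exact subset_convexJoin_left hTn (show (y, (0:ℝ)) ∈ S from ⟨hy, rfl⟩)
    rw [hvA'] at hle
    exact hle
  have h1' : 1 ≤ vol {y : Fin k → ℝ | (y, (1:ℝ)) ∈ C} := by
    have hle : vol (β⁻¹ • B) ≤ vol {y : Fin k → ℝ | (y, (1:ℝ)) ∈ C} := by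
      apply ENNReal.toReal_mono (hfin 1)
      apply measure_mono
      intro y hy
      exact subset_convexJoin_right hSn (show (y, (1:ℝ)) ∈ T from ⟨hy, rfl⟩)
    rw [hvB'] at hle
    exact hle
  have hL : 1 ≤ vol {y : Fin k → ℝ | (y, (0:ℝ)) ∈ C} ^ (1 - μ)
      * vol {y : Fin k → ℝ | (y, (1:ℝ)) ∈ C} ^ μ := by
    have e1 := Real.one_le_rpow h0 h1μpos.le
    have e2 := Real.one_le_rpow h1' hμpos.le
    nlinarith
  have hsubW : {y : Fin k → ℝ | (y, (1 - μ) • (0:ℝ) + μ • (1:ℝ)) ∈ C} ⊆ c⁻¹ • W := by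
    intro y hy
    have hy2 : (y, (1 - μ) • (0:ℝ) + μ • (1:ℝ)) ∈ convexJoin ℝ S T := hy
    rw [mem_convexJoin] at hy2
    obtain ⟨⟨p1, p2⟩, hp, ⟨q1, q2⟩, hq, u, w, hu, hw, huw, hpq⟩ := hy2
    obtain ⟨hp1, hp2⟩ := hp
    obtain ⟨hq1, hq2⟩ := hq
    have hp2' : p2 = 0 := hp2
    have hq2' : q2 = 1 := hq2
    have hfst : u • p1 + w • q1 = y := congrArg Prod.fst hpq
    have hsnd : u • p2 + w • q2 = (1 - μ) • (0:ℝ) + μ • (1:ℝ) := congrArg Prod.snd hpq
    rw [hp2', hq2'] at hsnd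
    simp only [smul_eq_mul, mul_zero, mul_one, zero_add] at hsnd
    have hu' : u = 1 - μ := by linarith
    obtain ⟨x, hx, hxp⟩ := hp1
    obtain ⟨y', hy', hyq⟩ := hq1
    have hxp' : α⁻¹ • x = p1 := hxp
    have hyq' : β⁻¹ • y' = q1 := hyq
    refine ⟨a • x + b • y', hW x hx y' hy', ?_⟩
    show c⁻¹ • (a • x + b • y') = y
    rw [← hfst, hu', hsnd, h1μ, hμ, ← hxp', ← hyq']
    simp only [smul_add, smul_smul]
    congr 2 <;> field_simp
  have hWs : volume (c⁻¹ • W) ≠ ⊤ := by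
    rw [Measure.addHaar_smul]
    exact ENNReal.mul_ne_top ENNReal.ofReal_ne_top hWfin
  have hR : vol {y : Fin k → ℝ | (y, (1 - μ) • (0:ℝ) + μ • (1:ℝ)) ∈ C} ≤ vol (c⁻¹ • W) :=
    ENNReal.toReal_mono hWs (measure_mono hsubW)
  rw [bmk_vol_smul (inv_nonneg.mpr hcpos.le)] at hR
  have hone : 1 ≤ c⁻¹ ^ k * vol W := le_trans hL (le_trans key hR)
  have hfinal : c ^ k ≤ vol W := by
    have hc2 : 0 < c ^ k := by positivity
    calc c ^ k = c ^ k * 1 := by ring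
      _ ≤ c ^ k * (c⁻¹ ^ k * vol W) := mul_le_mul_of_nonneg_left hone hc2.le
      _ = vol W := by
        rw [← mul_assoc, ← mul_pow, mul_inv_cancel₀ hcpos.ne', one_pow, one_mul]
  exact bmk_le_root hk hcpos.le hfinal

/-! ### SECK : the `m`-th root of the section volume is concave on its support -/

/-- Brunn-Minkowski for parallel sections of a convex body in `ℝ^(m+1)`: the `m`-th root of the
section volume is concave along any segment joining two heights with nonempty sections. -/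
theorem seck_sec_root_concave {m : ℕ} (hm : 1 ≤ m) {K : Set (Fin (m+1) → ℝ)}
    (hK : IsCompact K) (hc : Convex ℝ K) {s t a b : ℝ} (ha : 0 ≤ a) (hb : 0 ≤ b)
    (hab : a + b = 1) (hs : (sec K s).Nonempty) (ht : (sec K t).Nonempty) :
    a * (vol (sec K s)) ^ ((m:ℝ)⁻¹) + b * (vol (sec K t)) ^ ((m:ℝ)⁻¹)
      ≤ (vol (sec K (a * s + b * t))) ^ ((m:ℝ)⁻¹) :=
  bm_root hm (isCompact_sec hK s) (convex_sec hc s) hs (isCompact_sec hK t) (convex_sec hc t) ht
    (isCompact_sec hK (a * s + b * t)).measure_lt_top.ne ha hb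
    (fun _ hx _ hy => sec_combo hc ha hb hab hx hy)

theorem root_concave_vol_sec {m : ℕ} (hm : 1 ≤ m) {K : Set (Fin (m+1) → ℝ)} (hK : IsCompact K)
    (hc : Convex ℝ K) (hflip : ∀ x ∈ K, Function.update x 0 (-(x 0)) ∈ K) :
    ∃ a : ℝ, 0 ≤ a ∧ ConcaveOn ℝ (Icc (-a) a) (fun t => (vol (sec K t)) ^ ((m:ℝ)⁻¹)) ∧
      ∀ t, a < |t| → vol (sec K t) = 0 := by
  have hm0 : (m:ℝ)⁻¹ ≠ 0 := inv_ne_zero (Nat.cast_ne_zero.mpr (by omega))
  have hroot0 : (0:ℝ) ^ ((m:ℝ)⁻¹) = 0 := Real.zero_rpow hm0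
  have hvol_empty : vol (∅ : Set (Fin m → ℝ)) = 0 := by simp [vol]
  rcases K.eq_empty_or_nonempty with hemp | hne
  · have hsec : ∀ t, sec K t = ∅ := by
      intro t
      rw [eq_empty_iff_forall_notMem]
      intro y hy
      have h := mem_sec.1 hy
      rw [hemp] at h
      exact h
    refine ⟨0, le_rfl, ?_, ?_⟩
    · have h0 : (fun t => (vol (sec K t)) ^ ((m:ℝ)⁻¹)) = fun _ => (0:ℝ) := by
        funext t
        rw [hsec t, hvol_empty, hroot0]
      rw [h0]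
      exact concaveOn_const 0 (convex_Icc _ _)
    · intro t _
      rw [hsec t, hvol_empty]
  · have hPc : IsCompact ((fun x : Fin (m+1) → ℝ => x 0) '' K) :=
      hK.image (continuous_apply 0)
    have hPne : ((fun x : Fin (m+1) → ℝ => x 0) '' K).Nonempty := hne.image _
    set a := sSup ((fun x : Fin (m+1) → ℝ => x 0) '' K) with hadef
    obtain ⟨p, hpK, hpa⟩ := hPc.sSup_mem hPne
    have hpa' : p 0 = a := hpa
    have hle : ∀ x ∈ K, x 0 ≤ a := fun x hx => le_csSup hPc.bddAbove ⟨x, hx, rfl⟩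
    have habs : ∀ x ∈ K, |x 0| ≤ a := by
      intro x hx
      have h1 := hle x hx
      have h2 := hle _ (hflip x hx)
      rw [Function.update_self] at h2
      exact abs_le.mpr ⟨by linarith, h1⟩
    have ha0 : 0 ≤ a := le_trans (abs_nonneg _) (habs p hpK)
    have hempty : ∀ t, a < |t| → sec K t = ∅ := by
      intro t ht
      rw [eq_empty_iff_forall_notMem]
      intro y hy
      have h := habs _ (mem_sec.1 hy)
      rw [Fin.cons_zero] at h
      linarith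
    have hnon : ∀ t ∈ Icc (-a) a, (sec K t).Nonempty := by
      intro t ht
      refine ⟨Fin.tail p, ?_⟩
      rw [mem_sec]
      have hp' : Function.update p 0 (-(p 0)) ∈ K := hflip p hpK
      rcases eq_or_lt_of_le ha0 with h0 | hpos
      · have ht0 : t = 0 := le_antisymm (by rw [h0]; exact ht.2) (by linarith [ht.1])
        have e : (Fin.cons t (Fin.tail p) : Fin (m+1) → ℝ) = p := by
          rw [ht0, h0, ← hpa']
          exact Fin.cons_self_tail p
        rw [e]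
        exact hpK
      · have hl0 : 0 ≤ (a + t) / (2 * a) := div_nonneg (by linarith [ht.1]) (by linarith)
        have hl1 : 0 ≤ (a - t) / (2 * a) := div_nonneg (by linarith [ht.2]) (by linarith)
        have hl : (a + t) / (2 * a) + (a - t) / (2 * a) = 1 := by
          field_simp; ring
        have h := hc hpK hp' hl0 hl1 hl
        have e : (Fin.cons t (Fin.tail p) : Fin (m+1) → ℝ)
            = ((a + t) / (2 * a)) • p + ((a - t) / (2 * a)) • Function.update p 0 (-(p 0)) := by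
          funext i
          refine Fin.cases ?_ ?_ i
          · simp only [Fin.cons_zero, Pi.add_apply, Pi.smul_apply, smul_eq_mul,
              Function.update_self, hpa']
            field_simp
            ring
          · intro j
            have hj : (Fin.succ j : Fin (m+1)) ≠ 0 := Fin.succ_ne_zero j
            simp only [Fin.cons_succ, Pi.add_apply, Pi.smul_apply, smul_eq_mul,
              Function.update_of_ne hj, Fin.tail]
            rw [← add_mul, hl, one_mul]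
        rw [e]
        exact h
    refine ⟨a, ha0, ⟨convex_Icc _ _, ?_⟩, fun t ht => ?_⟩
    · intro t0 ht0 t1 ht1 l0 l1 hl0 hl1 hl
      simp only [smul_eq_mul]
      exact seck_sec_root_concave hm hK hc hl0 hl1 hl (hnon t0 ht0) (hnon t1 ht1)
    · rw [hempty t ht, hvol_empty]

/-! ### HALF : the sharp half-line inequality for `k`-th powers of concave functions -/

/-- Three-point chord inequality for a concave function. -/
private lemma half_chord_le {f : ℝ → ℝ} {s : Set ℝ} (hf : ConcaveOn ℝ s f) {x y z : ℝ}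
    (hx : x ∈ s) (hz : z ∈ s) (hxy : x ≤ y) (hyz : y ≤ z) :
    (z - y) * f x + (y - x) * f z ≤ (z - x) * f y := by
  rcases eq_or_lt_of_le (hxy.trans hyz) with h | h
  · have hy : y = x := le_antisymm (h ▸ hyz) hxy
    subst hy
    subst h
    simp
  · have hzx : 0 < z - x := sub_pos.mpr h
    have hne : z - x ≠ 0 := hzx.ne'
    have hsum : (z - y) / (z - x) + (y - x) / (z - x) = 1 := by
      rw [← add_div, div_eq_one_iff_eq hne]; ring
    have key := hf.2 hx hz (div_nonneg (sub_nonneg.mpr hyz) hzx.le)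
      (div_nonneg (sub_nonneg.mpr hxy) hzx.le) hsum
    have e : ((z - y) / (z - x)) • x + ((y - x) / (z - x)) • z = y := by
      simp only [smul_eq_mul]
      field_simp
      ring
    rw [e] at key
    simp only [smul_eq_mul] at key
    have h2 := mul_le_mul_of_nonneg_left key hzx.le
    have e2 : (z - x) * ((z - y) / (z - x) * f x + (y - x) / (z - x) * f z)
        = (z - y) * f x + (y - x) * f z := by
      field_simp
    linarith

/-- Integral of a quadratic polynomial against a function. -/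
private lemma half_int_quad_mul {v : ℝ → ℝ} {a : ℝ} (hv : IntervalIntegrable v volume 0 a)
    (p0 p1 p2 : ℝ) :
    ∫ t in (0:ℝ)..a, (p0 + p1 * t + p2 * t ^ 2) * v t =
      p0 * (∫ t in (0:ℝ)..a, v t) + p1 * (∫ t in (0:ℝ)..a, t * v t)
        + p2 * (∫ t in (0:ℝ)..a, t ^ 2 * v t) := by
  have h1 : IntervalIntegrable (fun t : ℝ => t * v t) volume 0 a :=
    hv.continuousOn_mul (g := fun t : ℝ => t) continuous_id.continuousOn
  have h2 : IntervalIntegrable (fun t : ℝ => t ^ 2 * v t) volume 0 a :=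
    hv.continuousOn_mul (g := fun t : ℝ => t ^ 2) (continuous_pow 2).continuousOn
  have e : (fun t : ℝ => (p0 + p1 * t + p2 * t ^ 2) * v t)
      = fun t : ℝ => (p0 * v t + p1 * (t * v t)) + p2 * (t ^ 2 * v t) := by
    funext t; ring
  rw [e, intervalIntegral.integral_add ((hv.const_mul p0).add (h1.const_mul p1)) (h2.const_mul p2),
    intervalIntegral.integral_add (hv.const_mul p0) (h1.const_mul p1),
    intervalIntegral.integral_const_mul, intervalIntegral.integral_const_mul,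
    intervalIntegral.integral_const_mul]

/-- Integral of a power of `c - t`. -/
private lemma half_int_pow (c : ℝ) (j : ℕ) (x y : ℝ) :
    ∫ t in x..y, (c - t) ^ j = ((c - x) ^ (j + 1) - (c - y) ^ (j + 1)) / ((j:ℝ) + 1) := by
  have h := intervalIntegral.integral_comp_sub_left (fun u : ℝ => u ^ j) c (a := x) (b := y)
  rw [h, integral_pow]

/-- Integral of a quadratic polynomial against a power of `c - t`. -/
private lemma half_int_quad_pow (p0 p1 p2 c : ℝ) (k : ℕ) (x y : ℝ) :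
    ∫ t in x..y, (p0 + p1 * t + p2 * t ^ 2) * (c - t) ^ k =
      (p0 + p1 * c + p2 * c ^ 2) * (((c - x) ^ (k + 1) - (c - y) ^ (k + 1)) / ((k:ℝ) + 1))
        - (p1 + 2 * p2 * c) * (((c - x) ^ (k + 2) - (c - y) ^ (k + 2)) / ((k:ℝ) + 2))
        + p2 * (((c - x) ^ (k + 3) - (c - y) ^ (k + 3)) / ((k:ℝ) + 3)) := by
  have e : (fun t : ℝ => (p0 + p1 * t + p2 * t ^ 2) * (c - t) ^ k)
      = fun t : ℝ => ((p0 + p1 * c + p2 * c ^ 2) * (c - t) ^ k
          - (p1 + 2 * p2 * c) * (c - t) ^ (k + 1)) + p2 * (c - t) ^ (k + 2) := by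
    funext t; ring
  have c0 : IntervalIntegrable (fun t : ℝ => (p0 + p1 * c + p2 * c ^ 2) * (c - t) ^ k)
      volume x y := Continuous.intervalIntegrable (by fun_prop) _ _
  have c1 : IntervalIntegrable (fun t : ℝ => (p1 + 2 * p2 * c) * (c - t) ^ (k + 1))
      volume x y := Continuous.intervalIntegrable (by fun_prop) _ _
  have c2 : IntervalIntegrable (fun t : ℝ => p2 * (c - t) ^ (k + 2))
      volume x y := Continuous.intervalIntegrable (by fun_prop) _ _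
  rw [e, intervalIntegral.integral_add (c0.sub c1) c2, intervalIntegral.integral_sub c0 c1,
    intervalIntegral.integral_const_mul, intervalIntegral.integral_const_mul,
    intervalIntegral.integral_const_mul, half_int_pow, half_int_pow, half_int_pow]
  push_cast
  ring

/-- A concave function on `[0, a]` changes sign at most twice, from negative to positive
to negative. -/
private lemma half_single_crossing {D : ℝ → ℝ} {a : ℝ} (ha : 0 ≤ a)
    (hD : ConcaveOn ℝ (Icc 0 a) D) :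
    ∃ t1 t2 : ℝ, 0 ≤ t1 ∧ t1 ≤ t2 ∧ t2 ≤ a ∧
      ∀ t ∈ Icc 0 a, (t - t1) * (t - t2) * D t ≤ 0 := by
  have hIc : Convex ℝ {t ∈ Icc 0 a | 0 < D t} := hD.convex_gt 0
  rcases ({t ∈ Icc 0 a | 0 < D t}).eq_empty_or_nonempty with hemp | hne
  · refine ⟨0, 0, le_rfl, le_rfl, ha, fun t ht => ?_⟩
    have hDt : D t ≤ 0 := by
      by_contra h
      push Not at h
      have hmem : t ∈ {t ∈ Icc 0 a | 0 < D t} := ⟨ht, h⟩
      rw [hemp] at hmem
      exact hmem
    have h0 : 0 ≤ (t - 0) * (t - 0) := mul_self_nonneg _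
    nlinarith [mul_nonneg h0 (neg_nonneg.mpr hDt)]
  · have hbb : BddBelow {t ∈ Icc 0 a | 0 < D t} := ⟨0, fun t ht => ht.1.1⟩
    have hba : BddAbove {t ∈ Icc 0 a | 0 < D t} := ⟨a, fun t ht => ht.1.2⟩
    refine ⟨sInf {t ∈ Icc 0 a | 0 < D t}, sSup {t ∈ Icc 0 a | 0 < D t},
      le_csInf hne (fun t ht => ht.1.1), csInf_le_csSup hne hbb hba,
      csSup_le hne (fun t ht => ht.1.2), fun t ht => ?_⟩
    have h12 := csInf_le_csSup hne hbb hba
    rcases lt_trichotomy t (sInf {t ∈ Icc 0 a | 0 < D t}) with h1 | h1 | h1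
    · have hDt : D t ≤ 0 := by
        by_contra h
        push Not at h
        have hmem : t ∈ {t ∈ Icc 0 a | 0 < D t} := ⟨ht, h⟩
        exact absurd (csInf_le hbb hmem) (not_le.mpr h1)
      have hp : 0 ≤ (t - sInf {t ∈ Icc 0 a | 0 < D t}) * (t - sSup {t ∈ Icc 0 a | 0 < D t}) :=
        mul_nonneg_of_nonpos_of_nonpos (by linarith) (by linarith)
      nlinarith [mul_nonneg hp (neg_nonneg.mpr hDt)]
    · rw [h1]; simp
    · rcases lt_trichotomy t (sSup {t ∈ Icc 0 a | 0 < D t}) with h2 | h2 | h2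
      · obtain ⟨s1, hs1, hs1t⟩ := exists_lt_of_csInf_lt hne h1
        obtain ⟨s2, hs2, hs2t⟩ := exists_lt_of_lt_csSup hne h2
        have htI : t ∈ {t ∈ Icc 0 a | 0 < D t} :=
          hIc.ordConnected.out hs1 hs2 ⟨hs1t.le, hs2t.le⟩
        have hDt : 0 < D t := htI.2
        have hp : 0 ≤ (t - sInf {t ∈ Icc 0 a | 0 < D t}) * (sSup {t ∈ Icc 0 a | 0 < D t} - t) :=
          mul_nonneg (by linarith) (by linarith)
        nlinarith [mul_nonneg hp hDt.le]
      · rw [h2]; simp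
      · have hDt : D t ≤ 0 := by
          by_contra h
          push Not at h
          have hmem : t ∈ {t ∈ Icc 0 a | 0 < D t} := ⟨ht, h⟩
          exact absurd (le_csSup hba hmem) (not_le.mpr h2)
        have hp : 0 ≤ (t - sInf {t ∈ Icc 0 a | 0 < D t}) * (t - sSup {t ∈ Icc 0 a | 0 < D t}) :=
          mul_nonneg (by linarith) (by linarith)
        nlinarith [mul_nonneg hp (neg_nonneg.mpr hDt)]

theorem pow_concave_half_line (k : ℕ) (hk : 1 ≤ k) (v r : ℝ → ℝ) (a : ℝ) (ha : 0 ≤ a)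
    (hr0 : ∀ t, 0 ≤ r t) (hvr : ∀ t, v t = r t ^ k) (hconc : ConcaveOn ℝ (Icc 0 a) r)
    (hv : IntervalIntegrable v volume 0 a) :
    ((k:ℝ) + 3) * ((∫ t in (0:ℝ)..a, v t) * (∫ t in (0:ℝ)..a, t ^ 2 * v t))
      ≤ 2 * ((k:ℝ) + 2) * (∫ t in (0:ℝ)..a, t * v t) ^ 2 := by
  have hv0 : ∀ t, 0 ≤ v t := fun t => by rw [hvr]; exact pow_nonneg (hr0 t) k
  have hk0 : (0:ℝ) ≤ (k:ℝ) := Nat.cast_nonneg k
  have hk1 : (0:ℝ) < (k:ℝ) + 1 := by linarith
  have hk2 : (0:ℝ) < (k:ℝ) + 2 := by linarith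
  have hk3 : (0:ℝ) < (k:ℝ) + 3 := by linarith
  set A := ∫ t in (0:ℝ)..a, v t with hA
  set B := ∫ t in (0:ℝ)..a, t * v t with hB
  set M := ∫ t in (0:ℝ)..a, t ^ 2 * v t with hM
  have hA0 : 0 ≤ A := intervalIntegral.integral_nonneg ha (fun t _ => hv0 t)
  rcases eq_or_lt_of_le hA0 with hAz | hApos
  · rw [← hAz]
    have : 0 ≤ 2 * ((k:ℝ) + 2) * B ^ 2 := by positivity
    linarith
  have hapos : 0 < a := by
    rcases eq_or_lt_of_le ha with h | h
    · exfalso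
      rw [hA, ← h] at hApos
      simp at hApos
    · exact h
  have h0mem : (0:ℝ) ∈ Icc 0 a := ⟨le_rfl, ha⟩
  have hamem : a ∈ Icc 0 a := ⟨ha, le_rfl⟩
  set t0 := a / ((k:ℝ) + 2) with ht0
  have ht00 : 0 ≤ t0 := by rw [ht0]; positivity
  have ht0a : t0 ≤ a := by
    rw [ht0, div_le_iff₀ hk2]
    nlinarith
  have ht0mem : t0 ∈ Icc 0 a := ⟨ht00, ht0a⟩
  have hat0 : a - t0 = a * ((k:ℝ) + 1) / ((k:ℝ) + 2) := by
    rw [ht0]; field_simp; ring
  have hat0pos : 0 < a - t0 := by rw [hat0]; positivity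
  -- FACT 1: a * A ≤ (k + 2) * B
  have hfact1 : a * A ≤ ((k:ℝ) + 2) * B := by
    have hpt : ∀ t ∈ Icc 0 a,
        0 ≤ (((k:ℝ) + 2) * t - a) * ((a - t0) ^ k * v t - (a - t) ^ k * v t0) := by
      intro t ht
      rw [hvr t, hvr t0, ← mul_pow, ← mul_pow]
      have hra := hr0 a
      have hrt := hr0 t
      have hrq := hr0 t0
      have hsgn : ((k:ℝ) + 2) * t - a = ((k:ℝ) + 2) * (t - t0) := by
        rw [ht0]; field_simp
      rw [hsgn]
      rcases le_total t t0 with h | h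
      · have hc := half_chord_le hconc ht hamem h ht0a
        have hprod := mul_nonneg (sub_nonneg.mpr h) hra
        have h1 : (a - t0) * r t ≤ (a - t) * r t0 := by linarith
        have h1' : 0 ≤ (a - t0) * r t := mul_nonneg hat0pos.le hrt
        have h2 := pow_le_pow_left₀ h1' h1 k
        have h3 : ((k:ℝ) + 2) * (t - t0) ≤ 0 :=
          mul_nonpos_iff.mpr (Or.inl ⟨hk2.le, by linarith⟩)
        exact mul_nonneg_of_nonpos_of_nonpos h3 (by linarith)
      · have hc := half_chord_le hconc ht0mem hamem h ht.2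
        have hprod := mul_nonneg (sub_nonneg.mpr h) hra
        have h1 : (a - t) * r t0 ≤ (a - t0) * r t := by linarith
        have h1' : 0 ≤ (a - t) * r t0 := mul_nonneg (by linarith [ht.2]) hrq
        have h2 := pow_le_pow_left₀ h1' h1 k
        exact mul_nonneg (mul_nonneg hk2.le (by linarith)) (by linarith)
    have hint := intervalIntegral.integral_nonneg (μ := volume) ha hpt
    have e : (fun t : ℝ => (((k:ℝ) + 2) * t - a) * ((a - t0) ^ k * v t - (a - t) ^ k * v t0))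
        = fun t : ℝ => (-(a * (a - t0) ^ k) + ((k:ℝ) + 2) * (a - t0) ^ k * t + 0 * t ^ 2) * v t
            - v t0 * ((-a + ((k:ℝ) + 2) * t + 0 * t ^ 2) * (a - t) ^ k) := by
      funext t; ring
    rw [e, intervalIntegral.integral_sub
      (hv.continuousOn_mul
        (g := fun t : ℝ => -(a * (a - t0) ^ k) + ((k:ℝ) + 2) * (a - t0) ^ k * t + 0 * t ^ 2)
        (by fun_prop))
      (Continuous.intervalIntegrable (by fun_prop) _ _),
      half_int_quad_mul hv, intervalIntegral.integral_const_mul, half_int_quad_pow] at hint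
    have hz : (-a + ((k:ℝ) + 2) * a + 0 * a ^ 2)
          * (((a - 0) ^ (k + 1) - (a - a) ^ (k + 1)) / ((k:ℝ) + 1))
        - (((k:ℝ) + 2) + 2 * 0 * a) * (((a - 0) ^ (k + 2) - (a - a) ^ (k + 2)) / ((k:ℝ) + 2))
        + 0 * (((a - 0) ^ (k + 3) - (a - a) ^ (k + 3)) / ((k:ℝ) + 3)) = 0 := by
      rw [sub_self, sub_zero, zero_pow (by omega), zero_pow (by omega), zero_pow (by omega)]
      field_simp
      ring
    rw [hz] at hint
    have h2 : 0 ≤ (a - t0) ^ k * (((k:ℝ) + 2) * B - a * A) := by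
      have e2 : (a - t0) ^ k * (((k:ℝ) + 2) * B - a * A)
          = -(a * (a - t0) ^ k) * A + ((k:ℝ) + 2) * (a - t0) ^ k * B + 0 * M - v t0 * 0 := by
        ring
      rw [e2]; exact hint
    have hpos : 0 < (a - t0) ^ k := pow_pos hat0pos k
    have h3 : 0 ≤ ((k:ℝ) + 2) * B - a * A := by
      by_contra hneg
      push Not at hneg
      nlinarith [mul_pos hpos (neg_pos.mpr hneg)]
    linarith
  have hBpos : 0 < B := by nlinarith [mul_pos hapos hApos]
  -- the comparison cone h t = α * (β - t) ^ k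
  set β := ((k:ℝ) + 2) * B / A with hβ
  have hβA : β * A = ((k:ℝ) + 2) * B := by
    rw [hβ]; field_simp
  have hβa : a ≤ β := by
    rw [hβ, le_div_iff₀ hApos]; exact hfact1
  have hβpos : 0 < β := lt_of_lt_of_le hapos hβa
  set α := ((k:ℝ) + 1) * A / β ^ (k + 1) with hα
  have hαβ : α * β ^ (k + 1) = ((k:ℝ) + 1) * A := by
    rw [hα]; field_simp
  have hα0 : 0 ≤ α := by rw [hα]; positivity
  set γ := α ^ ((k:ℝ)⁻¹) with hγ
  have hγ0 : 0 ≤ γ := Real.rpow_nonneg hα0 _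
  have hγk : γ ^ k = α := Real.rpow_inv_natCast_pow hα0 (by omega)
  -- single crossing
  have hDconc : ConcaveOn ℝ (Icc 0 a) (fun t => r t - γ * (β - t)) := by
    refine hconc.sub ⟨convex_Icc 0 a, ?_⟩
    intro x _ y _ p q _ _ hpq
    have hq : q = 1 - p := by linarith
    subst hq
    simp only [smul_eq_mul]
    apply le_of_eq
    ring
  obtain ⟨t1, t2, ht1, ht12, ht2, hcross⟩ := half_single_crossing ha hDconc
  have hcross2 : ∀ t ∈ Icc 0 a, (t - t1) * (t - t2) * (v t - α * (β - t) ^ k) ≤ 0 := by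
    intro t ht
    have hx0 : 0 ≤ r t := hr0 t
    have hy0 : 0 ≤ γ * (β - t) := mul_nonneg hγ0 (by linarith [ht.2])
    have e : v t - α * (β - t) ^ k = r t ^ k - (γ * (β - t)) ^ k := by
      rw [hvr t, mul_pow, hγk]
    rw [e]
    have hc := hcross t ht
    rcases le_total (r t) (γ * (β - t)) with h | h
    · have hpow := pow_le_pow_left₀ hx0 h k
      rcases eq_or_lt_of_le h with heq | hlt
      · rw [heq, sub_self, mul_zero]
      · have hP : 0 ≤ (t - t1) * (t - t2) := by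
          by_contra hneg
          push Not at hneg
          have := mul_pos_of_neg_of_neg hneg (sub_neg.mpr hlt)
          linarith
        exact mul_nonpos_iff.mpr (Or.inl ⟨hP, by linarith⟩)
    · have hpow := pow_le_pow_left₀ hy0 h k
      rcases eq_or_lt_of_le h with heq | hlt
      · rw [heq, sub_self, mul_zero]
      · have hP : (t - t1) * (t - t2) ≤ 0 := by
          by_contra hneg
          push Not at hneg
          have := mul_pos hneg (sub_pos.mpr hlt)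
          linarith
        exact mul_nonpos_iff.mpr (Or.inr ⟨hP, by linarith⟩)
  -- (I1)
  have hI1 : 0 ≤ ∫ t in (0:ℝ)..a, -((t - t1) * (t - t2) * (v t - α * (β - t) ^ k)) :=
    intervalIntegral.integral_nonneg ha (fun t ht => neg_nonneg.mpr (hcross2 t ht))
  have e1 : (fun t : ℝ => -((t - t1) * (t - t2) * (v t - α * (β - t) ^ k)))
      = fun t : ℝ => α * ((t1 * t2 + (-(t1 + t2)) * t + 1 * t ^ 2) * (β - t) ^ k)
          - (t1 * t2 + (-(t1 + t2)) * t + 1 * t ^ 2) * v t := by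
    funext t; ring
  have hcont : Continuous
      (fun t : ℝ => (t1 * t2 + (-(t1 + t2)) * t + 1 * t ^ 2) * (β - t) ^ k) := by fun_prop
  rw [e1, intervalIntegral.integral_sub
    ((hcont.intervalIntegrable _ _).const_mul α)
    (hv.continuousOn_mul (g := fun t : ℝ => t1 * t2 + (-(t1 + t2)) * t + 1 * t ^ 2)
      (by fun_prop)),
    intervalIntegral.integral_const_mul, half_int_quad_mul hv] at hI1
  -- (I2)
  have hI2 : 0 ≤ ∫ t in a..β, α * ((t1 * t2 + (-(t1 + t2)) * t + 1 * t ^ 2) * (β - t) ^ k) := by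
    refine intervalIntegral.integral_nonneg hβa (fun t ht => ?_)
    have e : (t1 * t2 + (-(t1 + t2)) * t + 1 * t ^ 2) = (t - t1) * (t - t2) := by ring
    rw [e]
    exact mul_nonneg hα0 (mul_nonneg (mul_nonneg (by linarith [ht.1]) (by linarith [ht.1]))
      (pow_nonneg (by linarith [ht.2]) k))
  rw [intervalIntegral.integral_const_mul] at hI2
  have hadd := intervalIntegral.integral_add_adjacent_intervals (a := (0:ℝ)) (b := a) (c := β)
    (hcont.intervalIntegrable (μ := volume) 0 a) (hcont.intervalIntegrable (μ := volume) a β)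
  have hfull := half_int_quad_pow (t1 * t2) (-(t1 + t2)) 1 β k 0 β
  rw [sub_self, sub_zero, zero_pow (by omega), zero_pow (by omega), zero_pow (by omega),
    sub_zero, sub_zero, sub_zero] at hfull
  -- conclusion
  have hB' : B = β * A / ((k:ℝ) + 2) := by
    rw [hβA]; field_simp
  have hkey : α * ((t1 * t2 + -(t1 + t2) * β + 1 * β ^ 2) * (β ^ (k + 1) / ((k:ℝ) + 1))
        - (-(t1 + t2) + 2 * 1 * β) * (β ^ (k + 2) / ((k:ℝ) + 2))
        + 1 * (β ^ (k + 3) / ((k:ℝ) + 3)))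
      = t1 * t2 * A - (t1 + t2) * B + 2 * (β * B) / ((k:ℝ) + 3) := by
    have e3 : α * ((t1 * t2 + -(t1 + t2) * β + 1 * β ^ 2) * (β ^ (k + 1) / ((k:ℝ) + 1))
        - (-(t1 + t2) + 2 * 1 * β) * (β ^ (k + 2) / ((k:ℝ) + 2))
        + 1 * (β ^ (k + 3) / ((k:ℝ) + 3)))
        = (t1 * t2 + -(t1 + t2) * β + β ^ 2) * ((α * β ^ (k + 1)) / ((k:ℝ) + 1))
          - (-(t1 + t2) + 2 * β) * (β * (α * β ^ (k + 1)) / ((k:ℝ) + 2))
          + β ^ 2 * (α * β ^ (k + 1)) / ((k:ℝ) + 3) := by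
      ring
    rw [e3, hαβ, hB']
    field_simp
    ring
  have hMle : M ≤ 2 * (β * B) / ((k:ℝ) + 3) := by
    have hsum : α * (∫ t in (0:ℝ)..a, (t1 * t2 + (-(t1 + t2)) * t + 1 * t ^ 2) * (β - t) ^ k)
        + α * (∫ t in a..β, (t1 * t2 + (-(t1 + t2)) * t + 1 * t ^ 2) * (β - t) ^ k)
        = t1 * t2 * A - (t1 + t2) * B + 2 * (β * B) / ((k:ℝ) + 3) := by
      rw [← mul_add, hadd, hfull, hkey]
    linarith
  have h3M : ((k:ℝ) + 3) * M ≤ 2 * (β * B) := by
    rw [le_div_iff₀ hk3] at hMle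
    linarith
  have hfin : A * (((k:ℝ) + 3) * M) ≤ A * (2 * (β * B)) :=
    mul_le_mul_of_nonneg_left h3M hA0
  have e4 : A * (2 * (β * B)) = 2 * ((k:ℝ) + 2) * B ^ 2 := by
    have : A * (2 * (β * B)) = 2 * ((β * A) * B) := by ring
    rw [this, hβA]; ring
  have e5 : ((k:ℝ) + 3) * (A * M) = A * (((k:ℝ) + 3) * M) := by ring
  rw [e5, ← e4]
  exact hfin

/-! ### EVEN : the even version on the whole line -/

/-- An even function supported in `[-a, a]` has integral twice its integral over `[0, a]`. -/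
theorem even_even_integral (f : ℝ → ℝ) (a : ℝ) (ha : 0 ≤ a) (heven : ∀ t, f (-t) = f t)
    (hsupp : ∀ t, a < |t| → f t = 0) :
    ∫ t, f t = 2 * ∫ t in (0:ℝ)..a, f t := by
  have h1 : ∫ t, f t = ∫ t, f |t| := by
    congr 1
    funext t
    rcases abs_cases t with ⟨h, _⟩ | ⟨h, _⟩
    · rw [h]
    · rw [h, heven]
  rw [h1, integral_comp_abs, intervalIntegral.integral_of_le ha]
  congr 1
  refine setIntegral_eq_of_subset_of_forall_sdiff_eq_zero measurableSet_Ioi Ioc_subset_Ioi_self ?_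
  intro x hx
  apply hsupp
  have hx0 : 0 < x := hx.1
  have hxa : ¬ (x ∈ Ioc 0 a) := hx.2
  rw [abs_of_pos hx0]
  by_contra h
  push Not at h
  exact hxa ⟨hx0, h⟩

theorem root_concave_second_moment (k : ℕ) (hk : 1 ≤ k) (v : ℝ → ℝ) (a : ℝ) (ha : 0 ≤ a)
    (hvm : Measurable v) (hv0 : ∀ t, 0 ≤ v t) (heven : ∀ t, v (-t) = v t)
    (hconc : ConcaveOn ℝ (Set.Icc (-a) a) (fun t => (v t) ^ ((k:ℝ)⁻¹)))
    (hsupp : ∀ t, a < |t| → v t = 0) :
    ((k:ℝ) + 3) * ((∫ t, t ^ 2 * v t) * (∫ t, v t))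
      ≤ 2 * ((k:ℝ) + 2) * (∫ t, |t| * v t) ^ 2 := by
  have hk0 : k ≠ 0 := by omega
  have hkpos : (0:ℝ) < (k:ℝ) := by exact_mod_cast hk
  have hkinv : (0:ℝ) < (k:ℝ)⁻¹ := inv_pos.mpr hkpos
  have hbound : ∀ t ∈ Icc (-a) a, v t ≤ v 0 := by
    intro t ht
    have hnt : -t ∈ Icc (-a) a := ⟨by linarith [ht.2], by linarith [ht.1]⟩
    have key := hconc.2 ht hnt (by norm_num : (0:ℝ) ≤ 1 / 2) (by norm_num : (0:ℝ) ≤ 1 / 2)
      (by norm_num)
    simp only [smul_eq_mul] at key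
    have e : (1 / 2 : ℝ) * t + 1 / 2 * -t = 0 := by ring
    rw [e, heven] at key
    have h1 : (v t) ^ ((k:ℝ)⁻¹) ≤ (v 0) ^ ((k:ℝ)⁻¹) := by linarith
    exact (Real.rpow_le_rpow_iff (hv0 t) (hv0 0) hkinv).mp h1
  have hv : IntervalIntegrable v volume 0 a := by
    rw [intervalIntegrable_iff_integrableOn_Icc_of_le ha]
    refine Measure.integrableOn_of_bounded (M := v 0) (by simp) hvm.aestronglyMeasurable ?_
    refine (ae_restrict_iff' measurableSet_Icc).mpr (Filter.Eventually.of_forall fun t ht => ?_)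
    rw [Real.norm_eq_abs, abs_of_nonneg (hv0 t)]
    exact hbound t ⟨by linarith [ht.1], ht.2⟩
  have hc0 : ConcaveOn ℝ (Icc 0 a) (fun t => (v t) ^ ((k:ℝ)⁻¹)) :=
    hconc.subset (Icc_subset_Icc (by linarith) le_rfl) (convex_Icc 0 a)
  have hhalf := pow_concave_half_line k hk v (fun t => (v t) ^ ((k:ℝ)⁻¹)) a ha
    (fun t => Real.rpow_nonneg (hv0 t) _)
    (fun t => (Real.rpow_inv_natCast_pow (hv0 t) hk0).symm) hc0 hv
  have e1 : ∫ t, t ^ 2 * v t = 2 * ∫ t in (0:ℝ)..a, t ^ 2 * v t :=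
    even_even_integral (fun t => t ^ 2 * v t) a ha (fun t => by simp [heven])
      (fun t ht => by simp [hsupp t ht])
  have e2 : ∫ t, v t = 2 * ∫ t in (0:ℝ)..a, v t := even_even_integral v a ha heven hsupp
  have e3 : ∫ t, |t| * v t = 2 * ∫ t in (0:ℝ)..a, t * v t := by
    rw [even_even_integral (fun t => |t| * v t) a ha (fun t => by simp [heven])
      (fun t ht => by simp [hsupp t ht])]
    congr 1
    refine intervalIntegral.integral_congr (fun t ht => ?_)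
    rw [uIcc_of_le ha] at ht
    show |t| * v t = t * v t
    rw [abs_of_nonneg ht.1]
  rw [e1, e2, e3]
  have g1 : ((k:ℝ) + 3) * ((2 * ∫ t in (0:ℝ)..a, t ^ 2 * v t) * (2 * ∫ t in (0:ℝ)..a, v t))
      = 4 * (((k:ℝ) + 3) * ((∫ t in (0:ℝ)..a, v t) * (∫ t in (0:ℝ)..a, t ^ 2 * v t))) := by
    ring
  have g2 : 2 * ((k:ℝ) + 2) * (2 * ∫ t in (0:ℝ)..a, t * v t) ^ 2
      = 4 * (2 * ((k:ℝ) + 2) * (∫ t in (0:ℝ)..a, t * v t) ^ 2) := by ring
  rw [g1, g2]
  linarith [hhalf]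

/-! ### ZERO : the moment inequality for the coordinate `0` -/

theorem berwald_zero_gen {m : ℕ} (hm : 1 ≤ m) {K : Set (Fin (m+1) → ℝ)} (hK : IsCompact K)
    (hc : Convex ℝ K) (hflip : ∀ x ∈ K, Function.update x 0 (-(x 0)) ∈ K) :
    ((m:ℝ) + 3) * (m2 K 0 * vol K) ≤ 2 * ((m:ℝ) + 2) * (∫ x in K, |x 0|) ^ 2 := by
  obtain ⟨a, ha, hconc, hsupp⟩ := root_concave_vol_sec hm hK hc hflip
  have h := root_concave_second_moment m hm (fun t => vol (sec K t)) a ha (measurable_vol_sec hK)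
    (fun t => ENNReal.toReal_nonneg) (fun t => by rw [sec_neg_of_flip hflip]) hconc hsupp
  rw [m2_zero_slice hK, vol_slice hK, abs_moment_zero_slice hK]
  exact h

/-! ### COORDK : the moment inequality for every coordinate -/

theorem flip_m2_sharp {m : ℕ} (hm : 1 ≤ m) {K : Set (Fin (m+1) → ℝ)} (hK : IsCompact K)
    (hc : Convex ℝ K)
    (hflip : ∀ j : Fin (m+1), ∀ x ∈ K, Function.update x j (-(x j)) ∈ K) (i : Fin (m+1)) :
    ((m:ℝ) + 3) * (m2 K i * vol K) ≤ 2 * ((m:ℝ) + 2) * (∫ x in K, |x i|) ^ 2 := by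
  have h := berwald_zero_gen hm (swapSet_isCompact hK i) (swapSet_convex hc i)
    (swapSet_flip hflip i)
  have h2 : m2 K i = m2 (swapSet K i) 0 := by
    unfold m2
    exact swapSet_integral K i (fun t => t ^ 2)
  have h0 : vol K = vol (swapSet K i) := by
    have h3 := swapSet_integral K i (fun _ => (1:ℝ))
    rw [setIntegral_const, setIntegral_const] at h3
    simpa [vol, Measure.real] using h3
  have h1 : ∫ x in K, |x i| = ∫ y in swapSet K i, |y 0| :=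
    swapSet_integral K i (fun t => |t|)
  rw [h2, h0, h1]
  exact h

/-! ### RATIOK : from the volume bound to the covariance determinant, sharp constant -/

theorem orl_ratio_sharp {m : ℕ} (hm : 1 ≤ m) {K : Set (Fin (m+1) → ℝ)} (hK : IsCompact K)
    (hc : Convex ℝ K)
    (hflip : ∀ j : Fin (m+1), ∀ x ∈ K, Function.update x j (-(x j)) ∈ K)
    (hV : 0 < vol K) (hvol : ∏ i, (4 * bvec K i) ≤ vol K) :
    (covMatrix K).det / (vol K) ^ 2 ≤ (((m:ℝ) + 2) / (8 * ((m:ℝ) + 3))) ^ (m + 1) ∧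
      0 ≤ (covMatrix K).det / (vol K) ^ 2 := by
  have hm0 : (0:ℝ) ≤ (m:ℝ) := Nat.cast_nonneg m
  have hm3 : (0:ℝ) < (m:ℝ) + 3 := by linarith
  have hm2 : (0:ℝ) < (m:ℝ) + 2 := by linarith
  set c : ℝ := 2 * ((m:ℝ) + 2) / ((m:ℝ) + 3) with hcdef
  have hcpos : 0 ≤ c := by rw [hcdef]; positivity
  have hdet : (covMatrix K).det = ∏ i, ((vol K)⁻¹ * m2 K i) := by
    rw [covMatrix_of_flip hflip, Matrix.det_diagonal]
  have hVi : 0 < (vol K)⁻¹ := inv_pos.mpr hV
  have hc0 : ∀ i, 0 ≤ (vol K)⁻¹ * m2 K i := by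
    intro i
    refine mul_nonneg hVi.le ?_
    unfold m2
    exact integral_nonneg (fun x => sq_nonneg _)
  have hI0 : ∀ i, 0 ≤ ∫ x in K, |x i| := fun i => integral_nonneg (fun x => abs_nonneg _)
  have hbv : ∀ i, bvec K i = (vol K)⁻¹ * ∫ x in K, |x i| := fun i => rfl
  have hb0 : ∀ i, 0 ≤ bvec K i := by
    intro i
    rw [hbv]
    exact mul_nonneg hVi.le (hI0 i)
  have hcb : ∀ i, (vol K)⁻¹ * m2 K i ≤ c * (bvec K i) ^ 2 := by
    intro i
    have h := flip_m2_sharp hm hK hc hflip i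
    have h' : m2 K i * vol K ≤ c * (∫ x in K, |x i|) ^ 2 := by
      rw [hcdef, div_mul_eq_mul_div, le_div_iff₀ hm3]
      linarith
    rw [hbv]
    have e1 : (vol K)⁻¹ * m2 K i = (vol K)⁻¹ * (vol K)⁻¹ * (m2 K i * vol K) := by
      have e0 : (vol K)⁻¹ * (vol K)⁻¹ * (m2 K i * vol K)
          = (vol K)⁻¹ * m2 K i * ((vol K)⁻¹ * vol K) := by ring
      rw [e0, inv_mul_cancel₀ hV.ne', mul_one]
    have e2 : c * ((vol K)⁻¹ * ∫ x in K, |x i|) ^ 2
        = (vol K)⁻¹ * (vol K)⁻¹ * (c * (∫ x in K, |x i|) ^ 2) := by ring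
    rw [e1, e2]
    exact mul_le_mul_of_nonneg_left h' (mul_nonneg hVi.le hVi.le)
  have hprod : (covMatrix K).det ≤ c ^ (m + 1) * (∏ i, bvec K i) ^ 2 := by
    rw [hdet]
    calc ∏ i, ((vol K)⁻¹ * m2 K i) ≤ ∏ i, (c * (bvec K i) ^ 2) :=
          Finset.prod_le_prod (fun i _ => hc0 i) (fun i _ => hcb i)
      _ = c ^ (m + 1) * (∏ i, bvec K i) ^ 2 := by
          rw [Finset.prod_mul_distrib, Finset.prod_pow, Finset.prod_const, Finset.card_univ,
            Fintype.card_fin]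
  have hP0 : 0 ≤ ∏ i, bvec K i := Finset.prod_nonneg (fun i _ => hb0 i)
  have hP : 4 ^ (m + 1) * ∏ i, bvec K i ≤ vol K := by
    rw [Finset.prod_mul_distrib, Finset.prod_const, Finset.card_univ, Fintype.card_fin] at hvol
    exact hvol
  have hdet0 : 0 ≤ (covMatrix K).det := by
    rw [hdet]
    exact Finset.prod_nonneg (fun i _ => hc0 i)
  have hV2 : 0 < (vol K) ^ 2 := by positivity
  refine ⟨?_, div_nonneg hdet0 hV2.le⟩
  rw [div_le_iff₀ hV2]
  have h4 : (4 ^ (m + 1) * ∏ i, bvec K i) ^ 2 ≤ (vol K) ^ 2 :=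
    pow_le_pow_left₀ (mul_nonneg (by positivity) hP0) hP 2
  have hq0 : 0 ≤ (((m:ℝ) + 2) / (8 * ((m:ℝ) + 3))) ^ (m + 1) := by positivity
  have e16 : c ^ (m + 1)
      = (((m:ℝ) + 2) / (8 * ((m:ℝ) + 3))) ^ (m + 1) * ((4:ℝ) ^ (m + 1)) ^ 2 := by
    have h16 : ((4:ℝ) ^ (m + 1)) ^ 2 = (16:ℝ) ^ (m + 1) := by
      rw [← pow_mul, mul_comm (m + 1) 2, pow_mul]
      norm_num
    rw [h16, ← mul_pow]
    congr 1
    rw [hcdef]
    field_simp
    ring
  calc (covMatrix K).det ≤ c ^ (m + 1) * (∏ i, bvec K i) ^ 2 := hprod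
    _ = (((m:ℝ) + 2) / (8 * ((m:ℝ) + 3))) ^ (m + 1) * (4 ^ (m + 1) * ∏ i, bvec K i) ^ 2 := by
        rw [e16, mul_pow]
        ring
    _ ≤ (((m:ℝ) + 2) / (8 * ((m:ℝ) + 3))) ^ (m + 1) * (vol K) ^ 2 :=
        mul_le_mul_of_nonneg_left h4 hq0

/-! ### NUMK : the bound is below the simplex value from dimension 2 on -/

theorem numk_exp_sq_lt : Real.exp 1 ^ 2 * (14 / 13 : ℝ) < 8 := by
  have h1 : Real.exp 1 < 2.7182818286 := Real.exp_one_lt_d9
  have h0 : (0:ℝ) < Real.exp 1 := Real.exp_pos 1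
  have h2 : Real.exp 1 ^ 2 < (2.7182818286 : ℝ) ^ 2 := by
    apply pow_lt_pow_left₀ h1 h0.le
    norm_num
  have h3 : (2.7182818286 : ℝ) ^ 2 * (14 / 13) < 8 := by norm_num
  linarith

theorem numk_ratio_le (N : ℕ) (hN : 13 ≤ N) : (1 + 1 / (N:ℝ)) ^ (2 * N + 1) ≤ 8 := by
  have hNpos : (0:ℝ) < N := by
    have : (13:ℝ) ≤ N := by exact_mod_cast hN
    linarith
  have hN13 : (13:ℝ) ≤ N := by exact_mod_cast hN
  have ha0 : (0:ℝ) ≤ 1 + 1 / (N:ℝ) := by positivity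
  have ha1 : 1 + 1 / (N:ℝ) ≤ Real.exp (1 / (N:ℝ)) := by
    have := Real.add_one_le_exp (1 / (N:ℝ))
    linarith
  have ha2 : 1 + 1 / (N:ℝ) ≤ 14 / 13 := by
    have : 1 / (N:ℝ) ≤ 1 / 13 := one_div_le_one_div_of_le (by norm_num) hN13
    linarith
  have hpow : (1 + 1 / (N:ℝ)) ^ N ≤ Real.exp 1 := by
    have h := pow_le_pow_left₀ ha0 ha1 N
    have e : Real.exp (1 / (N:ℝ)) ^ N = Real.exp 1 := by
      rw [← Real.exp_nat_mul]
      congr 1
      field_simp
    rw [e] at h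
    exact h
  have hpow0 : (0:ℝ) ≤ (1 + 1 / (N:ℝ)) ^ N := pow_nonneg ha0 N
  have hsq : ((1 + 1 / (N:ℝ)) ^ N) ^ 2 ≤ Real.exp 1 ^ 2 := pow_le_pow_left₀ hpow0 hpow 2
  have hsq0 : (0:ℝ) ≤ ((1 + 1 / (N:ℝ)) ^ N) ^ 2 := by positivity
  have hE0 : (0:ℝ) ≤ Real.exp 1 ^ 2 := by positivity
  have hsplit : (1 + 1 / (N:ℝ)) ^ (2 * N + 1)
      = ((1 + 1 / (N:ℝ)) ^ N) ^ 2 * (1 + 1 / (N:ℝ)) := by
    rw [pow_succ, pow_mul']
  rw [hsplit]
  have hprod : ((1 + 1 / (N:ℝ)) ^ N) ^ 2 * (1 + 1 / (N:ℝ)) ≤ Real.exp 1 ^ 2 * (14 / 13) :=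
    mul_le_mul hsq ha2 ha0 hE0
  have := numk_exp_sq_lt
  linarith

theorem numk_step (N : ℕ) (hN : 3 ≤ N) : (N + 1) ^ (2 * N + 1) ≤ 8 * N ^ (2 * N + 1) := by
  rcases Nat.lt_or_ge N 13 with h | h
  · interval_cases N <;> norm_num
  · have hNpos : (0:ℝ) < N := by
      have : (13:ℝ) ≤ N := by exact_mod_cast h
      linarith
    have hx := numk_ratio_le N h
    have e : ((N:ℝ) + 1) = N * (1 + 1 / (N:ℝ)) := by
      field_simp
    have hreal : ((N:ℝ) + 1) ^ (2 * N + 1) ≤ 8 * (N:ℝ) ^ (2 * N + 1) := by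
      rw [e, mul_pow]
      calc (N:ℝ) ^ (2 * N + 1) * (1 + 1 / (N:ℝ)) ^ (2 * N + 1)
          ≤ (N:ℝ) ^ (2 * N + 1) * 8 := mul_le_mul_of_nonneg_left hx (by positivity)
        _ = 8 * (N:ℝ) ^ (2 * N + 1) := by ring
    exact_mod_cast hreal

theorem numk_nat (n : ℕ) (hn : 2 ≤ n) :
    (n + 1) ^ (2 * n + 1) < 8 ^ n * (n.factorial) ^ 2 := by
  induction n, hn using Nat.le_induction with
  | base => norm_num [Nat.factorial]
  | succ n hn ih =>
    have hs := numk_step (n + 1) (by omega)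
    have e1 : (n + 1) ^ (2 * (n + 1) + 1) = (n + 1) ^ 2 * (n + 1) ^ (2 * n + 1) := by ring
    have e2 : 8 ^ (n + 1) * ((n + 1).factorial) ^ 2
        = 8 * (n + 1) ^ 2 * (8 ^ n * (n.factorial) ^ 2) := by
      rw [Nat.factorial_succ]
      ring
    rw [e2]
    calc (n + 1 + 1) ^ (2 * (n + 1) + 1) ≤ 8 * (n + 1) ^ (2 * (n + 1) + 1) := hs
      _ = 8 * (n + 1) ^ 2 * (n + 1) ^ (2 * n + 1) := by
        rw [e1]
        ring
      _ < 8 * (n + 1) ^ 2 * (8 ^ n * (n.factorial) ^ 2) :=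
        mul_lt_mul_of_pos_left ih (by positivity)

theorem orl_numeric_sharp (m : ℕ) (hm : 1 ≤ m) :
    (((m:ℝ) + 2) / (8 * ((m:ℝ) + 3))) ^ (m + 1) < simplexRatio (m + 1) := by
  have hQ := numk_nat (m + 1) (by omega)
  have hQr : ((m:ℝ) + 2) ^ (2 * (m + 1) + 1)
      < 8 ^ (m + 1) * (((m + 1).factorial : ℕ) : ℝ) ^ 2 := by
    have h : (((m + 1 + 1 : ℕ) : ℝ)) ^ (2 * (m + 1) + 1)
        < ((8 ^ (m + 1) * ((m + 1).factorial) ^ 2 : ℕ) : ℝ) := by exact_mod_cast hQ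
    have e : (((m + 1 + 1 : ℕ) : ℝ)) = (m:ℝ) + 2 := by
      push_cast
      ring
    rw [e] at h
    push_cast at h
    exact h
  have ha : (0:ℝ) < (m:ℝ) + 2 := by positivity
  have hb : (0:ℝ) < (m:ℝ) + 3 := by positivity
  unfold simplexRatio
  have e1 : (((m + 1 : ℕ) : ℝ) + 1) = (m:ℝ) + 2 := by
    push_cast
    ring
  have e2 : (((m + 1 : ℕ) : ℝ) + 2) = (m:ℝ) + 3 := by
    push_cast
    ring
  rw [e1, e2]
  have eL : (((m:ℝ) + 2) / (8 * ((m:ℝ) + 3))) ^ (m + 1)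
      = ((m:ℝ) + 2) ^ (m + 1) / (8 ^ (m + 1) * ((m:ℝ) + 3) ^ (m + 1)) := by
    rw [div_pow, mul_pow]
  have eR : (1 / (((m:ℝ) + 2) * ((m:ℝ) + 3))) ^ (m + 1)
        * (((m + 1).factorial : ℕ) : ℝ) ^ 2 / ((m:ℝ) + 2)
      = (((m + 1).factorial : ℕ) : ℝ) ^ 2
        / (((m:ℝ) + 2) ^ (m + 1) * ((m:ℝ) + 3) ^ (m + 1) * ((m:ℝ) + 2)) := by
    rw [div_pow, mul_pow, one_pow]
    field_simp
  rw [eL, eR, div_lt_div_iff₀ (by positivity) (by positivity)]
  have hbk : (0:ℝ) < ((m:ℝ) + 3) ^ (m + 1) := pow_pos hb _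
  have hmul := mul_lt_mul_of_pos_right hQr hbk
  have eA : ((m:ℝ) + 2) ^ (m + 1)
        * (((m:ℝ) + 2) ^ (m + 1) * ((m:ℝ) + 3) ^ (m + 1) * ((m:ℝ) + 2))
      = ((m:ℝ) + 2) ^ (2 * (m + 1) + 1) * ((m:ℝ) + 3) ^ (m + 1) := by ring
  have eB : (((m + 1).factorial : ℕ) : ℝ) ^ 2 * (8 ^ (m + 1) * ((m:ℝ) + 3) ^ (m + 1))
      = 8 ^ (m + 1) * (((m + 1).factorial : ℕ) : ℝ) ^ 2 * ((m:ℝ) + 3) ^ (m + 1) := by ring
  rw [eA, eB]
  exact hmul

/-! ### MAIN : generalized Orlicz balls in every dimension at least two -/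

theorem orlicz_main_all {n : ℕ} (hn : 2 ≤ n) (ψ : Fin n → ℝ → ℝ)
    (hconv : ∀ i, ConvexOn ℝ (Ici 0) (ψ i)) (hmono : ∀ i, MonotoneOn (ψ i) (Ici 0))
    (hcont : ∀ i, ContinuousOn (ψ i) (Ici 0)) (h0 : ∀ i, ψ i 0 = 0)
    (hK : IsCompact {x : Fin n → ℝ | ∑ i, ψ i |x i| ≤ 1}) :
    Convex ℝ {x : Fin n → ℝ | ∑ i, ψ i |x i| ≤ 1} ∧
      (interior {x : Fin n → ℝ | ∑ i, ψ i |x i| ≤ 1}).Nonempty ∧
      (covMatrix {x : Fin n → ℝ | ∑ i, ψ i |x i| ≤ 1}).det /
        (vol {x : Fin n → ℝ | ∑ i, ψ i |x i| ≤ 1}) ^ 2 ≤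
          (((n:ℝ) + 1) / (8 * ((n:ℝ) + 2))) ^ n ∧
      (∀ T : Fin (n+1) → Fin n → ℝ, AffineIndependent ℝ T →
        isotropicConstant {x : Fin n → ℝ | ∑ i, ψ i |x i| ≤ 1} <
          isotropicConstant (convexHull ℝ (Set.range T))) := by
  obtain ⟨m, rfl⟩ : ∃ m, n = m + 1 := ⟨n - 1, by omega⟩
  have hm : 1 ≤ m := by omega
  have hK' : IsCompact (orlSet ψ) := hK
  have hconvK : Convex ℝ (orlSet ψ) := orlSet_convex ψ hconv hmono
  have hint : (interior (orlSet ψ)).Nonempty := orlSet_interior ψ hcont h0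
  have hV : 0 < vol (orlSet ψ) := vol_pos_of_interior hK' hint
  have hvol := orl_vol_ge ψ hconv hmono hcont h0 hK'
  obtain ⟨h1, h0'⟩ := orl_ratio_sharp hm hK' hconvK (orlSet_flip ψ) hV hvol
  have hcast : ((((m + 1 : ℕ) : ℝ)) + 1) / (8 * ((((m + 1 : ℕ) : ℝ)) + 2))
      = ((m:ℝ) + 2) / (8 * ((m:ℝ) + 3)) := by
    push_cast
    ring
  refine ⟨hconvK, hint, ?_, ?_⟩
  · rw [hcast]
    exact h1
  intro T hT
  have hlt : (covMatrix (orlSet ψ)).det / (vol (orlSet ψ)) ^ 2 < simplexRatio (m + 1) :=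
    lt_of_le_of_lt h1 (orl_numeric_sharp m hm)
  show isotropicConstant (orlSet ψ) < isotropicConstant (convexHull ℝ (Set.range T))
  unfold isotropicConstant
  rw [ratio_general_simplex T hT]
  have hpos : (0:ℝ) < 1 / (2 * ((m + 1 : ℕ) : ℝ)) := by positivity
  exact Real.rpow_lt_rpow h0' hlt hpos

end Vale.Agent.Lib.P254.Orlicz
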